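import Vale.Agent.P201.Sub

/-! Zero divisors in group rings: extensions with locally free kernel and arbitrary quotient. -/

namespace Vale.Agent.Results.P201.FreeKernel

universe u v

/-- Below `K` is any commutative ring (in particular any field) and `MonoidAlgebra K G` is the
group ring `K[G]`.
(1) If `N` is a normal subgroup of `G` each of whose finite subsets lies in a free subgroup of `N`
and `K[G ⧸ N]` has no zero divisors, then `K[G]` has none.
(2) If `N 0 ≥ N 1 ≥ ...` are normal subgroups of `G` with trivial intersection, each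
`N i ⧸ N (i + 1)` is locally free in the same sense, and `K[G ⧸ N 0]` has no zero divisors, then
`K[G]` has none.
(3) Let `G` be the free product of the groups `A i` (any nonempty family) amalgamated along
injective homomorphisms `φ i : C →* A i`, and `f : G →* Q` a homomorphism which is injective on
every factor `A i`. If `K[Q]` has no zero divisors, then `K[G]` has none.
(4) If `K[A]` has no zero divisors and `C` is any subgroup of `A`, then `K[G]` has no zero
divisors for the free product `G` of copies of `A` (any nonempty family) amalgamated along `C`. -/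
theorem result (K : Type v) [CommRing K] :
    (∀ (G : Type u) [Group G] (N : Subgroup G) [N.Normal],
      (∀ S : Finset G, (∀ s ∈ S, s ∈ N) →
        ∃ H : Subgroup G, H ≤ N ∧ (∀ s ∈ S, s ∈ H) ∧ IsFreeGroup H) →
      NoZeroDivisors (MonoidAlgebra K (G ⧸ N)) → NoZeroDivisors (MonoidAlgebra K G)) ∧
    (∀ (G : Type u) [Group G] (N : ℕ → Subgroup G) [∀ i, (N i).Normal],
      (∀ i, N (i + 1) ≤ N i) → (∀ g, (∀ i, g ∈ N i) → g = 1) →
      (∀ i, ∀ S : Finset (G ⧸ N (i + 1)),
        (∀ s ∈ S, s ∈ (N i).map (QuotientGroup.mk' (N (i + 1)))) →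
        ∃ H : Subgroup (G ⧸ N (i + 1)), H ≤ (N i).map (QuotientGroup.mk' (N (i + 1))) ∧
          (∀ s ∈ S, s ∈ H) ∧ IsFreeGroup H) →
      NoZeroDivisors (MonoidAlgebra K (G ⧸ N 0)) → NoZeroDivisors (MonoidAlgebra K G)) ∧
    (∀ (ι C Q : Type u) [Nonempty ι] [Group C] [Group Q] (A : ι → Type u) [∀ i, Group (A i)]
      (φ : ∀ i, C →* A i), (∀ i, Function.Injective (φ i)) →
      ∀ f : Monoid.PushoutI φ →* Q,
        (∀ i, Function.Injective fun a : A i => f (Monoid.PushoutI.of i a)) →
        NoZeroDivisors (MonoidAlgebra K Q) →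
        NoZeroDivisors (MonoidAlgebra K (Monoid.PushoutI φ))) ∧
    (∀ (A : Type u) [Group A] (C : Subgroup A) (ι : Type u) [Nonempty ι],
      NoZeroDivisors (MonoidAlgebra K A) →
      NoZeroDivisors (MonoidAlgebra K (Monoid.PushoutI (fun _ : ι => C.subtype)))) :=
  ⟨fun _ _ _ _ hN h => Vale.Agent.P201.noZeroDivisors_of_locallyFree hN h,
    fun _ _ _ _ hanti hinf hfree h0 => Vale.Agent.P201.descending hanti hinf hfree h0,
    fun _ _ _ _ _ _ _ _ _ hφ f hf h => Vale.Agent.P201.amalgam_over hφ f hf h,
    fun _ _ C _ _ h => Vale.Agent.P201.amalgam_domain C h⟩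

end Vale.Agent.Results.P201.FreeKernel
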